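import Vale.Agent.P146.R2.H144.Scale

/-!
# P146: the lower tail of the free energy from below, by scaling the disorder
-/

open MeasureTheory ProbabilityTheory Filter Topology
open scoped ENNReal NNReal

namespace Vale.Agent.P146.H144

variable {ι : Type*} [Fintype ι]

lemma lintegral_w {s : ℝ} (hs : 0 < s) :
    ∫⁻ g : ι → ℝ, ∏ i, w s (g i) ∂(Measure.pi fun _ : ι => gaussianReal 0 1) = 1 := by
  have h := congrArg (fun m => m Set.univ) (multi (ι := ι) hs)
  simp only at h
  have hT : Measurable fun g : ι → ℝ => fun i => s * g i := by fun_prop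
  rw [Measure.map_apply hT MeasurableSet.univ, Set.preimage_univ,
    withDensity_apply _ MeasurableSet.univ, Measure.restrict_univ, measure_univ] at h
  exact h

lemma prod_w {s : ℝ} (hs : 0 < s) (g : ι → ℝ) :
    ∏ i, w s (g i) = ENNReal.ofReal (Real.exp (Fintype.card ι * Real.log s +
      (1 - s ^ 2) / 2 * ∑ i, g i ^ 2)) := by
  have h1 : ∏ i, w s (g i) = ENNReal.ofReal (∏ i, (s * Real.exp ((1 - s ^ 2) / 2 *
      g i ^ 2))) := by
    rw [ENNReal.ofReal_prod_of_nonneg fun i _ => by positivity]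
    rfl
  rw [h1]
  congr 1
  rw [Finset.prod_mul_distrib, Finset.prod_const, ← Real.exp_sum, Real.exp_add,
    Finset.card_univ, Finset.mul_sum]
  congr 1
  rw [mul_comm, Real.exp_mul, Real.exp_log hs, Real.rpow_natCast]

/-- a chi-square lower tail -/
lemma chi {t : ℝ} (ht : 0 ≤ t) (hN : 0 < Fintype.card ι) :
    (Measure.pi fun _ : ι => gaussianReal 0 1)
      {g : ι → ℝ | ¬ ((Fintype.card ι : ℝ) - t ≤ ∑ i, g i ^ 2)} ≤
      ENNReal.ofReal (Real.exp (-(t ^ 2 / (4 * Fintype.card ι)))) := by
  have hN1 : (1 : ℝ) ≤ Fintype.card ι := by exact_mod_cast hN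
  have hN0 : (0 : ℝ) < Fintype.card ι := by linarith
  obtain ⟨δ, hδ⟩ : ∃ δ, δ = t / (2 * Fintype.card ι) := ⟨_, rfl⟩
  have hδ0 : 0 ≤ δ := by rw [hδ]; positivity
  have hs : 0 < 1 + δ := by linarith
  obtain ⟨E, hE⟩ : ∃ E : Set (ι → ℝ), E =
    {g | ¬ ((Fintype.card ι : ℝ) - t ≤ ∑ i, g i ^ 2)} := ⟨_, rfl⟩
  have h5 : Measurable fun g : ι → ℝ => ∑ i, g i ^ 2 := by fun_prop
  have hEm : MeasurableSet E := by
    rw [hE]
    exact (measurableSet_le measurable_const h5).compl
  rw [← hE]
  obtain ⟨a, ha⟩ : ∃ a, a = Fintype.card ι * Real.log (1 + δ) +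
    (1 - (1 + δ) ^ 2) / 2 * (Fintype.card ι - t) := ⟨_, rfl⟩
  have h1 : ENNReal.ofReal (Real.exp a) * (Measure.pi fun _ : ι => gaussianReal 0 1) E ≤ 1 := by
    calc ENNReal.ofReal (Real.exp a) * (Measure.pi fun _ : ι => gaussianReal 0 1) E
        = ∫⁻ _ in E, ENNReal.ofReal (Real.exp a)
          ∂(Measure.pi fun _ : ι => gaussianReal 0 1) := by
          rw [setLIntegral_const]
      _ ≤ ∫⁻ g in E, ∏ i, w (1 + δ) (g i) ∂(Measure.pi fun _ : ι => gaussianReal 0 1) := by
          refine setLIntegral_mono (by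
            refine Finset.measurable_prod _ fun i _ => (measurable_w _).comp
              (measurable_pi_apply i)) fun g hg => ?_
          rw [hE] at hg
          have hg' := not_le.1 hg
          rw [prod_w hs]
          refine ENNReal.ofReal_le_ofReal (Real.exp_le_exp.2 ?_)
          have h3 : (1 - (1 + δ) ^ 2) / 2 ≤ 0 := by nlinarith
          have h4 := mul_le_mul_of_nonpos_left hg'.le h3
          rw [ha]
          linarith
      _ ≤ ∫⁻ g, ∏ i, w (1 + δ) (g i) ∂(Measure.pi fun _ : ι => gaussianReal 0 1) :=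
          setLIntegral_le_lintegral _ _
      _ = 1 := lintegral_w hs
  have h2 : (Measure.pi fun _ : ι => gaussianReal 0 1) E ≤
      ENNReal.ofReal (Real.exp (-a)) := by
    have h3 : ENNReal.ofReal (Real.exp (-a)) * ENNReal.ofReal (Real.exp a) = 1 := by
      rw [← ENNReal.ofReal_mul (Real.exp_pos _).le, ← Real.exp_add]
      simp
    calc (Measure.pi fun _ : ι => gaussianReal 0 1) E
        = ENNReal.ofReal (Real.exp (-a)) * ENNReal.ofReal (Real.exp a) *
          (Measure.pi fun _ : ι => gaussianReal 0 1) E := by rw [h3, one_mul]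
      _ = ENNReal.ofReal (Real.exp (-a)) * (ENNReal.ofReal (Real.exp a) *
          (Measure.pi fun _ : ι => gaussianReal 0 1) E) := by rw [mul_assoc]
      _ ≤ ENNReal.ofReal (Real.exp (-a)) * 1 := by gcongr
      _ = _ := mul_one _
  refine h2.trans (ENNReal.ofReal_le_ofReal (Real.exp_le_exp.2 ?_))
  have h6 : δ - δ ^ 2 / 2 ≤ Real.log (1 + δ) := by
    have h7 := Real.le_log_one_add_of_nonneg hδ0
    refine le_trans ?_ h7
    rw [le_div_iff₀ (by linarith)]
    nlinarith [pow_nonneg hδ0 3]
  have h8 : t = 2 * Fintype.card ι * δ := by rw [hδ]; field_simp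
  have h9 : t ^ 2 / (4 * Fintype.card ι) = Fintype.card ι * δ ^ 2 := by
    rw [h8]; field_simp; ring
  rw [h9, ha]
  have h10 := mul_le_mul_of_nonneg_left h6 hN0.le
  have h11 : 0 ≤ Fintype.card ι * δ ^ 3 := by positivity
  rw [h8]
  nlinarith

/-- change of measure with the loss `1/4` -/
theorem change' {s : ℝ} (hs : 0 < s) (hs1 : s ≤ 1) {A : Set (ι → ℝ)} (hA : MeasurableSet A) :
    Real.exp (-(Fintype.card ι * ent s + 2 * (1 - s ^ 2) * Real.sqrt (Fintype.card ι))) *
      ((Measure.pi fun _ : ι => gaussianReal 0 1).real {g | (fun i => s * g i) ∈ A} - 1 / 4) ≤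
    (Measure.pi fun _ : ι => gaussianReal 0 1).real A := by
  obtain ⟨E, hE⟩ : ∃ E : Set (ι → ℝ), E = {g | (fun i => s * g i) ∈ A ∧
    Fintype.card ι - 4 * Real.sqrt (Fintype.card ι) ≤ ∑ i, g i ^ 2} := ⟨_, rfl⟩
  have h1 := change (ι := ι) hs hs1 hA (4 * Real.sqrt (Fintype.card ι))
  rw [← hE] at h1
  have h2 : Real.exp (-(Fintype.card ι * ent s + (1 - s ^ 2) / 2 *
      (4 * Real.sqrt (Fintype.card ι)))) *
      (Measure.pi fun _ : ι => gaussianReal 0 1).real E ≤
      (Measure.pi fun _ : ι => gaussianReal 0 1).real A := by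
    have h3 := ENNReal.toReal_mono (measure_ne_top _ _) h1
    rw [ENNReal.toReal_mul, ENNReal.toReal_ofReal (Real.exp_pos _).le] at h3
    exact h3
  have h4 : (Measure.pi fun _ : ι => gaussianReal 0 1).real
      {g : ι → ℝ | ¬ ((Fintype.card ι : ℝ) - 4 * Real.sqrt (Fintype.card ι) ≤
        ∑ i, g i ^ 2)} ≤ 1 / 4 := by
    rcases Nat.eq_zero_or_pos (Fintype.card ι) with h0 | h0
    · have h5 : {g : ι → ℝ | ¬ ((Fintype.card ι : ℝ) - 4 * Real.sqrt (Fintype.card ι) ≤
        ∑ i, g i ^ 2)} = ∅ := by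
        ext g
        simp only [Set.mem_setOf_eq, Set.mem_empty_iff_false, iff_false, not_not]
        rw [h0]
        have : 0 ≤ ∑ i, g i ^ 2 := Finset.sum_nonneg fun i _ => sq_nonneg _
        simpa using this
      rw [h5]
      simp
    · have hN0 : (0 : ℝ) < Fintype.card ι := by exact_mod_cast h0
      have h6 := chi (ι := ι) (t := 4 * Real.sqrt (Fintype.card ι)) (by positivity) h0
      have h7 : (4 * Real.sqrt (Fintype.card ι)) ^ 2 / (4 * Fintype.card ι) = 4 := by
        rw [mul_pow, Real.sq_sqrt hN0.le]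
        field_simp
      rw [h7] at h6
      have h8 := ENNReal.toReal_mono (ENNReal.ofReal_ne_top) h6
      rw [ENNReal.toReal_ofReal (Real.exp_pos _).le] at h8
      refine h8.trans ?_
      have h9 : Real.exp (-4) ≤ 1 / 4 := by
        have h10 := Real.add_one_le_exp (4 : ℝ)
        rw [Real.exp_neg, one_div]
        exact inv_anti₀ (by norm_num) (by linarith)
      exact h9
  have h5 : (Measure.pi fun _ : ι => gaussianReal 0 1).real {g | (fun i => s * g i) ∈ A} - 1 / 4 ≤
      (Measure.pi fun _ : ι => gaussianReal 0 1).real E := by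
    have h6 : {g : ι → ℝ | (fun i => s * g i) ∈ A} ⊆ E ∪
      {g : ι → ℝ | ¬ ((Fintype.card ι : ℝ) - 4 * Real.sqrt (Fintype.card ι) ≤
        ∑ i, g i ^ 2)} := by
      intro g hg
      by_cases h : (Fintype.card ι : ℝ) - 4 * Real.sqrt (Fintype.card ι) ≤ ∑ i, g i ^ 2
      · left
        rw [hE]
        exact ⟨hg, h⟩
      · right
        exact h
    have h7 := (measureReal_mono (μ := Measure.pi fun _ : ι => gaussianReal 0 1) h6
      (measure_ne_top _ _)).trans (measureReal_union_le _ _)
    linarith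
  refine le_trans ?_ h2
  have h6 : Fintype.card ι * ent s + (1 - s ^ 2) / 2 * (4 * Real.sqrt (Fintype.card ι)) =
      Fintype.card ι * ent s + 2 * (1 - s ^ 2) * Real.sqrt (Fintype.card ι) := by ring
  rw [h6]
  exact mul_le_mul_of_nonneg_left h5 (Real.exp_pos _).le

variable {n : ℕ}

lemma ham_smul (s : ℝ) (g : Pair n → ℝ) (σ : Fin n → ℤˣ) :
    hamiltonian n (fun p => s * g p) σ = s * hamiltonian n g σ := by
  unfold hamiltonian
  simp only [Finset.mul_sum]
  refine Finset.sum_congr rfl fun p _ => ?_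
  ring

/-- scaling the disorder is a change of the temperature -/
lemma free_smul (β s : ℝ) (g : Pair n → ℝ) :
    freeEnergy n β (fun p => s * g p) = freeEnergy n (s * β) g := by
  unfold freeEnergy partitionFn
  congr 1
  refine Finset.sum_congr rfl fun σ _ => ?_
  rw [ham_smul]
  congr 1
  ring

/-- convexity along the scaling -/
lemma free_conv (β : ℝ) {s : ℝ} (hs : 0 < s) (hs1 : s ≤ 1) (g : Pair n → ℝ) :
    freeEnergy n β (fun p => s * g p) ≤ s * freeEnergy n β g + (1 - s) * (n * Real.log 2) := by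
  obtain ⟨C, hC⟩ : ∃ C : ℝ, C = 2 ^ n := ⟨_, rfl⟩
  have hC0 : 0 < C := by rw [hC]; positivity
  have hcard : (Fintype.card (Fin n → ℤˣ) : ℝ) = C := by
    rw [hC, Fintype.card_fun, Fintype.card_fin, Fintype.card_units_int]
    norm_num
  have hlog : Real.log C = n * Real.log 2 := by rw [hC, Real.log_pow]
  have hZ : 0 < partitionFn n β g := by
    unfold partitionFn
    exact Finset.sum_pos (fun _ _ => Real.exp_pos _) Finset.univ_nonempty
  have hZs : 0 < partitionFn n β (fun p => s * g p) := by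
    unfold partitionFn
    exact Finset.sum_pos (fun _ _ => Real.exp_pos _) Finset.univ_nonempty
  have h1 := Real.rpow_arith_mean_le_arith_mean_rpow Finset.univ
    (fun _ : Fin n → ℤˣ => 1 / C) (fun σ => Real.exp (s * (β * hamiltonian n g σ)))
    (fun _ _ => by positivity) (by
      rw [Finset.sum_const, Finset.card_univ, nsmul_eq_mul, hcard]
      field_simp) (fun _ _ => (Real.exp_pos _).le) (p := 1 / s)
    (by rw [le_div_iff₀ hs]; linarith)
  have h2 : ∀ σ : Fin n → ℤˣ, Real.exp (s * (β * hamiltonian n g σ)) ^ (1 / s) =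
      Real.exp (β * hamiltonian n g σ) := by
    intro σ
    rw [← Real.exp_mul]
    congr 1
    field_simp
  simp_rw [h2, ← Finset.mul_sum] at h1
  have h3 : ∑ σ : Fin n → ℤˣ, Real.exp (s * (β * hamiltonian n g σ)) =
      partitionFn n β (fun p => s * g p) := by
    unfold partitionFn
    refine Finset.sum_congr rfl fun σ _ => ?_
    rw [ham_smul]
    congr 1
    ring
  rw [h3] at h1
  have h4 : (1 / C * partitionFn n β (fun p => s * g p)) ^ (1 / s) ≤
      1 / C * partitionFn n β g := h1
  have h5 := Real.log_le_log (by positivity) h4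
  rw [Real.log_rpow (by positivity), Real.log_mul (by positivity) hZs.ne',
    Real.log_mul (by positivity) hZ.ne', one_div C, Real.log_inv, hlog] at h5
  have h6 := mul_le_mul_of_nonneg_left h5 hs.le
  rw [← mul_assoc, mul_one_div_cancel hs.ne', one_mul] at h6
  unfold freeEnergy
  linarith

lemma measurable_freeEnergy (β : ℝ) : Measurable (freeEnergy n β) := by
  unfold freeEnergy partitionFn hamiltonian
  fun_prop

/-- **The lower tail from below**, every `n`, `β`. -/
theorem low (β : ℝ) {s : ℝ} (hs : 0 < s) (hs1 : s ≤ 1) (y : ℝ)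
    (hy : 3 / 4 ≤ (disorder n).real {g | freeEnergy n β g ≤ y}) :
    1 / 2 * Real.exp (-(Fintype.card (Pair n) * ent s +
      2 * (1 - s ^ 2) * Real.sqrt (Fintype.card (Pair n)))) ≤
    (disorder n).real {g | freeEnergy n β g ≤ s * y + (1 - s) * (n * Real.log 2)} := by
  have h1 := change' (ι := Pair n) hs hs1
    (A := {g | freeEnergy n β g ≤ s * y + (1 - s) * (n * Real.log 2)})
    (measurableSet_le (measurable_freeEnergy β) measurable_const)
  have h2 : (disorder n).real {g | freeEnergy n β g ≤ y} ≤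
      (Measure.pi fun _ : Pair n => gaussianReal 0 1).real
        {g | (fun i => s * g i) ∈
          {g | freeEnergy n β g ≤ s * y + (1 - s) * (n * Real.log 2)}} := by
    unfold disorder
    refine measureReal_mono (fun g hg => ?_) (measure_ne_top _ _)
    simp only [Set.mem_setOf_eq] at hg ⊢
    refine (free_conv β hs hs1 g).trans ?_
    have := mul_le_mul_of_nonneg_left hg hs.le
    linarith
  have h3 : (1 : ℝ) / 2 ≤ (Measure.pi fun _ : Pair n => gaussianReal 0 1).real
        {g | (fun i => s * g i) ∈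
          {g | freeEnergy n β g ≤ s * y + (1 - s) * (n * Real.log 2)}} - 1 / 4 := by
    linarith
  have h4 := mul_le_mul_of_nonneg_left h3 (Real.exp_pos (-(Fintype.card (Pair n) * ent s +
      2 * (1 - s ^ 2) * Real.sqrt (Fintype.card (Pair n))))).le
  rw [mul_comm (1 / 2 : ℝ)]
  exact h4.trans h1

end Vale.Agent.P146.H144
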