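import Vale.Agent.P146.R2.H144.Low

/-!
# P146: the lower tail of the free energy from below, sharp relative entropy form
-/

open MeasureTheory ProbabilityTheory Filter Topology
open scoped ENNReal NNReal

namespace Vale.Agent.P146.H144

variable {n : ℕ}

lemma card_pair_le : (Fintype.card (Pair n) : ℝ) ≤ (n : ℝ) ^ 2 / 2 := by
  have h1 : Fintype.card (Pair n) + Fintype.card (Pair n) ≤ n ^ 2 := by
    have h2 : Fintype.card (Pair n ⊕ Pair n) ≤ Fintype.card (Fin n × Fin n) := by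
      refine Fintype.card_le_of_injective
        (fun q : Pair n ⊕ Pair n => Sum.elim (fun p => p.1) (fun p => (p.1.2, p.1.1)) q) ?_
      rintro (p | p) (q | q) hpq
      · simp only [Sum.elim_inl] at hpq
        rw [Subtype.ext hpq]
      · simp only [Sum.elim_inl, Sum.elim_inr] at hpq
        have h3 := p.2
        have h4 := q.2
        rw [hpq] at h3
        exact absurd h3 (not_lt.2 h4.le)
      · simp only [Sum.elim_inl, Sum.elim_inr] at hpq
        have h3 := p.2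
        have h4 := q.2
        rw [← hpq] at h4
        exact absurd h4 (not_lt.2 h3.le)
      · simp only [Sum.elim_inr, Prod.mk.injEq] at hpq
        rw [Subtype.ext (Prod.ext hpq.2 hpq.1)]
    rw [Fintype.card_sum, Fintype.card_prod, Fintype.card_fin] at h2
    rw [sq]
    exact h2
  have h5 : ((Fintype.card (Pair n) + Fintype.card (Pair n) : ℕ) : ℝ) ≤ ((n ^ 2 : ℕ) : ℝ) := by
    exact_mod_cast h1
  push_cast at h5
  linarith only [h5]

lemma sqrt_card_le : Real.sqrt (Fintype.card (Pair n)) ≤ n := by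
  have h1 := card_pair_le (n := n)
  have h2 : (0 : ℝ) ≤ n := Nat.cast_nonneg n
  rw [Real.sqrt_le_left h2]
  nlinarith

/-- `h(d) = ent (1 - d) ≥ d²` -/
lemma sq_le_ent {d : ℝ} (h0 : 0 ≤ d) (h1 : d < 1) : d ^ 2 ≤ ent (1 - d) := by
  have h2 : 0 < 1 - d := by linarith
  have h3 := Real.le_log_one_add_of_nonneg (x := d / (1 - d)) (by positivity)
  have h4 : 1 + d / (1 - d) = (1 - d)⁻¹ := by
    field_simp
    ring
  rw [h4, Real.log_inv] at h3
  have h5 : 2 * (d / (1 - d)) / (d / (1 - d) + 2) = 2 * d / (2 - d) := by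
    have : 2 - d ≠ 0 := by linarith
    have h6 : d / (1 - d) + 2 = (2 - d) / (1 - d) := by
      field_simp
      ring
    rw [h6]
    field_simp
  rw [h5] at h3
  have h6 : d + d ^ 2 / 2 ≤ 2 * d / (2 - d) := by
    rw [le_div_iff₀ (by linarith)]
    nlinarith [pow_nonneg h0 3]
  unfold ent
  nlinarith

/-- increments of the entropy -/
lemma ent_add {d δ : ℝ} (h0 : 0 ≤ d) (hδ : 0 ≤ δ) (h1 : d + δ < 1) :
    ent (1 - (d + δ)) ≤ ent (1 - d) + 2 * δ * (d + δ) / (1 - (d + δ)) := by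
  have h2 : 0 < 1 - (d + δ) := by linarith
  have h3 : 0 < 1 - d := by linarith
  have h4 : Real.log (1 - d) - Real.log (1 - (d + δ)) ≤ δ / (1 - (d + δ)) := by
    rw [← Real.log_div h3.ne' h2.ne']
    have h5 := Real.log_le_sub_one_of_pos (div_pos h3 h2)
    refine h5.trans (le_of_eq ?_)
    field_simp
    ring
  have h6 : δ / (1 - (d + δ)) = δ * (1 - (d + δ)) + δ * (1 - (1 - (d + δ)) ^ 2) /
      (1 - (d + δ)) := by
    field_simp
    ring
  have h7 : δ * (1 - (1 - (d + δ)) ^ 2) / (1 - (d + δ)) ≤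
      2 * δ * (d + δ) / (1 - (d + δ)) := by
    refine div_le_div_of_nonneg_right ?_ h2.le
    nlinarith [mul_nonneg hδ (sq_nonneg (d + δ))]
  unfold ent
  nlinarith [mul_nonneg hδ hδ]

/-- one `n` -/
theorem low_one {β p : ℝ} (hβ : 0 < β) (hn : 1 ≤ n)
    (hmean : ∫ g, freeEnergy n β g ∂(disorder n) ≤ n * p)
    (hvar : Var[freeEnergy n β; disorder n] ≤ β ^ 2 * n / 2)
    (hmem : MemLp (freeEnergy n β) 2 (disorder n)) {d' : ℝ} (h0 : 0 ≤ d') (h1 : d' < 1) :
    1 / 2 * Real.exp (-((n : ℝ) ^ 2 / 2 * ent (1 - d') + 4 * d' * n)) ≤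
    (disorder n).real {g | freeEnergy n β g ≤
      n * (p - d' * (p - Real.log 2)) + β * Real.sqrt (2 * n)} := by
  have hn1 : (1 : ℝ) ≤ n := by exact_mod_cast hn
  have hn0 : (0 : ℝ) < n := by linarith
  have : IsProbabilityMeasure (disorder n) := by
    unfold disorder
    infer_instance
  obtain ⟨c, hc⟩ : ∃ c, c = β * Real.sqrt (2 * n) := ⟨_, rfl⟩
  have hc0 : 0 < c := by rw [hc]; positivity
  have hc2 : c ^ 2 = 2 * β ^ 2 * n := by
    rw [hc, mul_pow, Real.sq_sqrt (by positivity)]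
    ring
  have hcheb : (disorder n).real {g | c ≤ |freeEnergy n β g -
      ∫ g, freeEnergy n β g ∂(disorder n)|} ≤ 1 / 4 := by
    have h2 := meas_ge_le_variance_div_sq hmem hc0
    have h3 := ENNReal.toReal_mono ENNReal.ofReal_ne_top h2
    rw [ENNReal.toReal_ofReal (div_nonneg (variance_nonneg _ _) (sq_nonneg _))] at h3
    refine h3.trans ?_
    rw [hc2, div_le_iff₀ (by positivity)]
    linarith
  have hy : 3 / 4 ≤ (disorder n).real {g | freeEnergy n β g ≤ n * p + c} := by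
    have h4 : {g | freeEnergy n β g ≤ n * p + c}ᶜ ⊆ {g | c ≤ |freeEnergy n β g -
      ∫ g, freeEnergy n β g ∂(disorder n)|} := by
      intro g hg
      have hg' : n * p + c < freeEnergy n β g := not_le.1 hg
      have h5 := le_abs_self (freeEnergy n β g - ∫ g, freeEnergy n β g ∂(disorder n))
      change c ≤ |freeEnergy n β g - ∫ g, freeEnergy n β g ∂(disorder n)|
      linarith
    have h5 := (measureReal_mono (μ := disorder n) h4 (measure_ne_top _ _)).trans hcheb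
    rw [probReal_compl_eq_one_sub (measurableSet_le (measurable_freeEnergy β)
      measurable_const)] at h5
    linarith
  have h6 := low (n := n) β (s := 1 - d') (by linarith) (by linarith) (n * p + c) hy
  have hent : 0 ≤ ent (1 - d') := (sq_nonneg d').trans (sq_le_ent h0 h1)
  have h7 : 1 / 2 * Real.exp (-((n : ℝ) ^ 2 / 2 * ent (1 - d') + 4 * d' * n)) ≤
      1 / 2 * Real.exp (-(Fintype.card (Pair n) * ent (1 - d') +
      2 * (1 - (1 - d') ^ 2) * Real.sqrt (Fintype.card (Pair n)))) := by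
    refine mul_le_mul_of_nonneg_left (Real.exp_le_exp.2 (neg_le_neg ?_)) (by norm_num)
    have h8 := mul_le_mul_of_nonneg_right (card_pair_le (n := n)) hent
    have h9 : 1 - (1 - d') ^ 2 ≤ 2 * d' := by nlinarith
    have h10 : 0 ≤ 1 - (1 - d') ^ 2 := by nlinarith
    have h11 : 2 * (1 - (1 - d') ^ 2) * Real.sqrt (Fintype.card (Pair n)) ≤
        2 * (2 * d') * n := by
      refine mul_le_mul (by linarith) sqrt_card_le (Real.sqrt_nonneg _) (by positivity)
    linarith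
  refine h7.trans (h6.trans ?_)
  refine measureReal_mono (fun g hg => ?_) (measure_ne_top _ _)
  change freeEnergy n β g ≤ n * (p - d' * (p - Real.log 2)) + β * Real.sqrt (2 * n)
  have hg' : freeEnergy n β g ≤ (1 - d') * (n * p + c) + (1 - (1 - d')) * (n * Real.log 2) := hg
  rw [← hc]
  have h12 : 0 ≤ d' * c := mul_nonneg h0 hc0.le
  nlinarith

/-- **sharp lower bound for the lower tail**, all `n`, abstract form -/
theorem low_abs {β : ℝ} (hβ : 0 < β) {p : ℝ} (hL : Real.log 2 < p)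
    (hmean : ∀ n : ℕ, 1 ≤ n → ∫ g, freeEnergy n β g ∂(disorder n) ≤ n * p)
    (hvar : ∀ n : ℕ, 1 ≤ n → Var[freeEnergy n β; disorder n] ≤ β ^ 2 * n / 2)
    (hmem : ∀ n : ℕ, MemLp (freeEnergy n β) 2 (disorder n)) {ε : ℝ} (hε : 0 < ε) :
    ∀ᶠ n : ℕ in atTop, ∀ s : ℝ, (n : ℝ) ^ (-(1 / 4) : ℝ) ≤ s →
      s ≤ (1 - ε) * (p - Real.log 2) →
      Real.exp (-((1 + ε) / 2 * (-Real.log (1 - s / (p - Real.log 2)) -
        (1 - (1 - s / (p - Real.log 2)) ^ 2) / 2) * (n : ℝ) ^ 2)) ≤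
      (disorder n).real {g | freeEnergy n β g ≤ n * (p - s)} := by
  obtain ⟨L, hLd⟩ : ∃ L, L = p - Real.log 2 := ⟨_, rfl⟩
  have hL0 : 0 < L := by linarith
  rw [← hLd]
  obtain ⟨C, hC⟩ : ∃ C, C = β * Real.sqrt 2 / L := ⟨_, rfl⟩
  have hC0 : 0 < C := by rw [hC]; positivity
  have hx : Tendsto (fun n : ℕ => (n : ℝ) ^ (-(1 / 4) : ℝ)) atTop (𝓝 0) :=
    (tendsto_rpow_neg_atTop (by norm_num : (0 : ℝ) < 1 / 4)).comp tendsto_natCast_atTop_atTop
  obtain ⟨M, hM⟩ : ∃ M, M = min 1 (ε ^ 2 / 64) / (1 + C * L + 100 * L / ε + 10 * L ^ 2 / ε) :=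
    ⟨_, rfl⟩
  have hM0 : 0 < M := by rw [hM]; positivity
  filter_upwards [hx.eventually (gt_mem_nhds hM0), eventually_ge_atTop 1] with n hxn hn s hs1 hs2
  have hn1 : (1 : ℝ) ≤ n := by exact_mod_cast hn
  have hn0 : (0 : ℝ) < n := by linarith
  obtain ⟨x, hxd⟩ : ∃ x, x = (n : ℝ) ^ (-(1 / 4) : ℝ) := ⟨_, rfl⟩
  rw [← hxd] at hxn hs1
  have hx0 : 0 < x := by rw [hxd]; positivity
  have hx4 : x ^ 4 * n = 1 := by
    rw [hxd, ← Real.rpow_natCast, ← Real.rpow_mul hn0.le]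
    norm_num
    rw [Real.rpow_neg_one]
    field_simp
  obtain ⟨d, hd⟩ : ∃ d, d = s / L := ⟨_, rfl⟩
  rw [← hd]
  have hsd : s = d * L := by rw [hd]; field_simp
  have hdx : x ≤ d * L := by rw [← hsd]; exact hs1
  have hd0 : 0 < d := by rw [hd]; exact div_pos (hx0.trans_le hs1) hL0
  have hd1 : d ≤ 1 - ε := by
    rw [hd, div_le_iff₀ hL0]
    exact hs2
  have hε1 : ε < 1 := by linarith
  -- the denominators
  have hden : 0 < 1 + C * L + 100 * L / ε + 10 * L ^ 2 / ε := by positivity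
  have hxM : x * (1 + C * L + 100 * L / ε + 10 * L ^ 2 / ε) < min 1 (ε ^ 2 / 64) := by
    rw [hM, lt_div_iff₀ hden] at hxn
    exact hxn
  have hm1 := hxM.trans_le (min_le_left _ _)
  have hm2 := hxM.trans_le (min_le_right _ _)
  have e1 : 0 ≤ x * (C * L) := by positivity
  have e2 : 0 ≤ x * (100 * L / ε) := by positivity
  have e3 : 0 ≤ x * (10 * L ^ 2 / ε) := by positivity
  rw [mul_add, mul_add, mul_add, mul_one] at hm1 hm2
  have k1 : x * (C * L) < ε ^ 2 / 64 := by linarith only [hm2, e1, e2, e3, hx0]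
  have k2 : x * (100 * L / ε) < 1 := by linarith only [hm1, e1, e2, e3, hx0]
  have k3 : x * (10 * L ^ 2 / ε) < 1 := by linarith only [hm1, e1, e2, e3, hx0]
  have k0 : x < 1 := by linarith only [hm1, e1, e2, e3, hx0]
  clear hm1 hm2 hxM hxn hM0 hM e1 e2 e3
  -- the shift
  obtain ⟨δ, hδ⟩ : ∃ δ, δ = C * x ^ 2 := ⟨_, rfl⟩
  have hδ0 : 0 < δ := by rw [hδ]; positivity
  have hδd : δ ≤ ε ^ 2 / 64 * d := by
    have h1 : δ * L ≤ ε ^ 2 / 64 * d * L := by
      calc δ * L = (x * (C * L)) * x := by rw [hδ]; ring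
        _ ≤ ε ^ 2 / 64 * x := mul_le_mul_of_nonneg_right k1.le hx0.le
        _ ≤ ε ^ 2 / 64 * (d * L) := by gcongr
        _ = ε ^ 2 / 64 * d * L := by ring
    exact le_of_mul_le_mul_right h1 hL0
  have hd1' : d < 1 := by linarith only [hd1, hε]
  have hee : ε ^ 2 ≤ ε := by nlinarith only [hε, hε1]
  have hδε : δ ≤ ε / 2 := by
    calc δ ≤ ε ^ 2 / 64 * d := hδd
      _ ≤ ε ^ 2 / 64 * 1 := by gcongr
      _ ≤ ε / 2 := by linarith only [hee, hε]
  have hδd2 : δ ≤ d := by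
    calc δ ≤ ε ^ 2 / 64 * d := hδd
      _ ≤ 1 * d := by
        refine mul_le_mul_of_nonneg_right ?_ hd0.le
        linarith only [hee, hε1]
      _ = d := one_mul d
  have hd' : d + δ < 1 := by linarith only [hδε, hd1, hε]
  have h1d' : ε / 2 ≤ 1 - (d + δ) := by linarith only [hδε, hd1]
  -- the entropy
  have hh0 := sq_le_ent hd0.le hd1'
  have hadd := ent_add hd0.le hδ0.le hd'
  have hadd2 : 2 * δ * (d + δ) / (1 - (d + δ)) ≤ ε / 8 * d ^ 2 := by
    rw [div_le_iff₀ (by linarith)]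
    have h2 : 2 * δ * (d + δ) ≤ 2 * (ε ^ 2 / 64 * d) * (2 * d) := by
      refine mul_le_mul (by linarith) (by linarith) (by linarith) (by positivity)
    have h3 : ε / 8 * d ^ 2 * (ε / 2) ≤ ε / 8 * d ^ 2 * (1 - (d + δ)) :=
      mul_le_mul_of_nonneg_left h1d' (by positivity)
    refine h2.trans (le_trans (le_of_eq ?_) h3)
    ring
  -- the probability
  have hlow := low_one (n := n) (p := p) hβ hn (hmean n hn) (hvar n hn) (hmem n)
    (d' := d + δ) (by linarith) hd'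
  have hset : (disorder n).real {g | freeEnergy n β g ≤
      n * (p - (d + δ) * (p - Real.log 2)) + β * Real.sqrt (2 * n)} ≤
      (disorder n).real {g | freeEnergy n β g ≤ n * (p - s)} := by
    have : IsProbabilityMeasure (disorder n) := by
      unfold disorder
      infer_instance
    refine measureReal_mono (fun g hg => ?_) (measure_ne_top _ _)
    change freeEnergy n β g ≤ n * (p - s)
    have hg' : freeEnergy n β g ≤
      n * (p - (d + δ) * (p - Real.log 2)) + β * Real.sqrt (2 * n) := hg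
    refine hg'.trans (le_of_eq ?_)
    have h4 : Real.sqrt n = x ^ 2 * n := by
      have h5 : Real.sqrt n ^ 2 = n := Real.sq_sqrt hn0.le
      have h6 : (x ^ 2 * (n : ℝ)) ^ 2 = (n : ℝ) := by
        have h6' : (x ^ 2 * (n : ℝ)) ^ 2 = (x ^ 4 * (n : ℝ)) * (n : ℝ) := by ring
        rw [h6', hx4, one_mul]
      have h7 : Real.sqrt n = Real.sqrt ((x ^ 2 * n) ^ 2) := by rw [h6]
      rw [h7, Real.sqrt_sq (by positivity)]
    have h8 : β * Real.sqrt (2 * n) = n * (δ * L) := by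
      rw [Real.sqrt_mul (by norm_num), h4, hδ, hC]
      field_simp
    rw [h8, ← hLd, hsd]
    ring
  refine le_trans ?_ (hlow.trans hset)
  have hlog2 : Real.log 2 ≤ ε / 8 * d ^ 2 * (n : ℝ) ^ 2 := by
    have h9 : Real.log 2 ≤ 1 := by
      have := Real.log_two_lt_d9
      linarith
    have h10 : 1 ≤ ε / 8 * d ^ 2 * (n : ℝ) ^ 2 := by
      have h11 : x ^ 2 ≤ d ^ 2 * L ^ 2 := by
        calc x ^ 2 ≤ (d * L) ^ 2 := pow_le_pow_left₀ hx0.le hdx 2
          _ = _ := by ring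
      have h12 : 10 * L ^ 2 * x ^ 2 ≤ ε := by
        have h13 : x * (10 * L ^ 2 / ε) * ε < 1 * ε := mul_lt_mul_of_pos_right k3 hε
        have h14 : x * (10 * L ^ 2 / ε) * ε = 10 * L ^ 2 * x := by field_simp
        have h15 : 0 ≤ 10 * L ^ 2 * x := by positivity
        have h16 : 10 * L ^ 2 * x * x ≤ 10 * L ^ 2 * x * 1 :=
          mul_le_mul_of_nonneg_left k0.le h15
        have h17 : 10 * L ^ 2 * x ^ 2 = 10 * L ^ 2 * x * x := by ring
        linarith only [h13, h14, h16, h17]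
      have h16 : (n : ℝ) * x ^ 4 = 1 := by linarith
      -- d² n² ≥ x² n² / L², and n x⁴ = 1
      have h17 : 1 ≤ (n : ℝ) * x ^ 2 * (n * x ^ 2) := by
        have : (n : ℝ) * x ^ 2 * (n * x ^ 2) = n * (n * x ^ 4) := by ring
        rw [this, h16, mul_one]
        exact hn1
      have h18 : L ^ 2 * 10 ≤ ε * (n * x ^ 2) * n := by
        have h19 : L ^ 2 * 10 * (x ^ 4 * n) ≤ ε * (n * x ^ 2) := by
          calc L ^ 2 * 10 * (x ^ 4 * n) = (10 * L ^ 2 * x ^ 2) * (n * x ^ 2) := by ring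
            _ ≤ ε * (n * x ^ 2) := by gcongr
        rw [hx4, mul_one] at h19
        have h20 : ε * (n * x ^ 2) * 1 ≤ ε * (n * x ^ 2) * n := by gcongr
        linarith
      have h21 : L ^ 2 * 10 ≤ ε * (d ^ 2 * L ^ 2) * n ^ 2 := by
        calc L ^ 2 * 10 ≤ ε * (n * x ^ 2) * n := h18
          _ = ε * x ^ 2 * n ^ 2 := by ring
          _ ≤ ε * (d ^ 2 * L ^ 2) * n ^ 2 := by gcongr
      have h22 : 10 ≤ ε * d ^ 2 * n ^ 2 := by
        have h23 : 10 * L ^ 2 ≤ ε * d ^ 2 * n ^ 2 * L ^ 2 := by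
          calc 10 * L ^ 2 = L ^ 2 * 10 := by ring
            _ ≤ ε * (d ^ 2 * L ^ 2) * n ^ 2 := h21
            _ = _ := by ring
        exact le_of_mul_le_mul_right h23 (by positivity)
      linarith
    linarith
  have hlin : 4 * (d + δ) * n ≤ ε / 8 * d ^ 2 * (n : ℝ) ^ 2 := by
    have h10 : 64 ≤ ε * d * n := by
      have h13 : x * (100 * L / ε) * ε < 1 * ε := mul_lt_mul_of_pos_right k2 hε
      have h14 : x * (100 * L / ε) * ε = 100 * L * x := by field_simp
      have h15 : 100 * L * x < ε := by linarith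
      -- ε d n L ≥ ε x n, and n x ≥ ... x⁴ n = 1
      have h16 : 100 * L ≤ ε * (x * n) := by
        have h17 : 100 * L * (x ^ 4 * n) ≤ ε * (x ^ 3 * n) := by
          calc 100 * L * (x ^ 4 * n) = (100 * L * x) * (x ^ 3 * n) := by ring
            _ ≤ ε * (x ^ 3 * n) := by gcongr
        rw [hx4, mul_one] at h17
        have h18 : x ^ 3 ≤ x := by
          calc x ^ 3 = x ^ 2 * x := by ring
            _ ≤ 1 * x := by
              refine mul_le_mul_of_nonneg_right ?_ hx0.le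
              nlinarith only [hx0, k0]
            _ = x := one_mul x
        have h19 : ε * (x ^ 3 * n) ≤ ε * (x * n) := by gcongr
        linarith
      have h20 : 100 * L ≤ ε * d * n * L := by
        calc 100 * L ≤ ε * (x * n) := h16
          _ ≤ ε * (d * L * n) := by gcongr
          _ = _ := by ring
      have h21 : 100 ≤ ε * d * n := le_of_mul_le_mul_right h20 hL0
      linarith
    have h11 : 4 * (d + δ) * n ≤ 8 * d * n := by
      refine mul_le_mul_of_nonneg_right ?_ hn0.le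
      linarith only [hδd2]
    have h12 : 64 * (d * n) ≤ ε * d * n * (d * n) := by gcongr
    have h13 : ε / 8 * d ^ 2 * (n : ℝ) ^ 2 = ε * d * n * (d * n) / 8 := by ring
    rw [h13]
    linarith only [h11, h12]
  have hfin : Real.log 2 + ((n : ℝ) ^ 2 / 2 * ent (1 - (d + δ)) + 4 * (d + δ) * n) ≤
      (1 + ε) / 2 * ent (1 - d) * (n : ℝ) ^ 2 := by
    have hn2 : 0 ≤ (n : ℝ) ^ 2 / 2 := by positivity
    have h23 := mul_le_mul_of_nonneg_left (hadd.trans (add_le_add le_rfl hadd2)) hn2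
    have h24 : ε / 2 * d ^ 2 * (n : ℝ) ^ 2 ≤ ε / 2 * ent (1 - d) * (n : ℝ) ^ 2 := by gcongr
    have h26 : (n : ℝ) ^ 2 / 2 * (ent (1 - d) + ε / 8 * d ^ 2) =
        (n : ℝ) ^ 2 / 2 * ent (1 - d) + ε / 16 * d ^ 2 * (n : ℝ) ^ 2 := by ring
    have h27 : (1 + ε) / 2 * ent (1 - d) * (n : ℝ) ^ 2 =
        (n : ℝ) ^ 2 / 2 * ent (1 - d) + ε / 2 * ent (1 - d) * (n : ℝ) ^ 2 := by ring
    have h28 : 0 ≤ ε * d ^ 2 * (n : ℝ) ^ 2 := by positivity
    rw [h26] at h23
    rw [h27]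
    have h29 : ε / 8 * d ^ 2 * (n : ℝ) ^ 2 = ε * d ^ 2 * (n : ℝ) ^ 2 / 8 := by ring
    have h30 : ε / 16 * d ^ 2 * (n : ℝ) ^ 2 = ε * d ^ 2 * (n : ℝ) ^ 2 / 16 := by ring
    have h31 : ε / 2 * d ^ 2 * (n : ℝ) ^ 2 = ε * d ^ 2 * (n : ℝ) ^ 2 / 2 := by ring
    rw [h29] at hlog2 hlin
    rw [h30] at h23
    rw [h31] at h24
    linarith only [hlog2, hlin, h23, h24, h28]
  have hexp : Real.exp (-((1 + ε) / 2 * ent (1 - d) * (n : ℝ) ^ 2)) ≤
      1 / 2 * Real.exp (-((n : ℝ) ^ 2 / 2 * ent (1 - (d + δ)) + 4 * (d + δ) * n)) := by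
    have h26 : (1 : ℝ) / 2 = Real.exp (-Real.log 2) := by
      rw [Real.exp_neg, Real.exp_log (by norm_num)]
      norm_num
    rw [h26, ← Real.exp_add]
    refine Real.exp_le_exp.2 ?_
    linarith
  exact hexp

end Vale.Agent.P146.H144
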