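import Vale.Agent.P146.R2.H952.Lim
import Vale.Agent.P146.R2.H952.Sharp
import Vale.Agent.P146.R2.H144.LowA

/-!
# P146: the lower tail of the free energy from below, sharp relative entropy form,
from the limit of the mean alone
-/

open MeasureTheory ProbabilityTheory Filter Topology

namespace Vale.Agent.P146.R2.H144

open Vale.Agent.P146 Vale.Agent.P146.Ub.Cv Vale.Agent.P146.H605

lemma memLp_free (n : ℕ) (β : ℝ) : MemLp (freeEnergy n β) 2 (disorder n) := by
  have hd := freeEnergy_dom n β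
  have h : MemLp (freeEnergy n β) 2 (gpi (Pair n)) := by
    rw [memLp_two_iff_integrable_sq hd.cont.aestronglyMeasurable]
    exact (hd.pow 2).integrable
  exact h

/-- for `n ^ (-1/4) ≤ s ≤ (1 - ε) (p - log 2)` the probability of `F_n ≤ n (p - s)` is at least
`exp (-(1 + ε) (n² / 2) h)`, `h = -log (1 - d) - (1 - (1 - d)²) / 2`, `d = s / (p - log 2)` -/
theorem low_sharp {β : ℝ} (hβ : 1 < β) {p : ℝ}
    (hp : Tendsto (fun n : ℕ => (∫ g, freeEnergy n β g ∂(disorder n)) / n) atTop (𝓝 p))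
    {ε : ℝ} (hε : 0 < ε) :
    ∀ᶠ n : ℕ in atTop, ∀ s : ℝ, (n : ℝ) ^ (-(1 / 4) : ℝ) ≤ s →
      s ≤ (1 - ε) * (p - Real.log 2) →
      Real.exp (-((1 + ε) / 2 * (-Real.log (1 - s / (p - Real.log 2)) -
        (1 - (1 - s / (p - Real.log 2)) ^ 2) / 2) * (n : ℝ) ^ 2)) ≤
      (disorder n).real {g | freeEnergy n β g ≤ n * (p - s)} :=
  Vale.Agent.P146.H144.low_abs (by linarith) (Vale.Agent.P146.R2.H952.log_two_lt_lim hβ hp)
    (Vale.Agent.P146.R2.H952.mean_le_lim hβ hp)
    (fun n hn => Vale.Agent.P146.R2.H952.var_le_lin n β hn) (fun n => memLp_free n β) hε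

end Vale.Agent.P146.R2.H144
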