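import Vale.Agent.P146.Defs

/-!
# P146: change of measure by a scaling of the disorder
-/

open MeasureTheory ProbabilityTheory
open scoped ENNReal NNReal

namespace Vale.Agent.P146.H144

variable {ι : Type*} [Fintype ι]

/-- the one-dimensional weight -/
noncomputable def w (s x : ℝ) : ℝ≥0∞ :=
  ENNReal.ofReal (s * Real.exp ((1 - s ^ 2) / 2 * x ^ 2))

lemma measurable_w (s : ℝ) : Measurable (w s) := by
  unfold w
  fun_prop

lemma oneD {s : ℝ} (hs : 0 < s) :
    ((gaussianReal 0 1).withDensity (w s)).map (fun x => s * x) = gaussianReal 0 1 := by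
  obtain ⟨v, hv⟩ : ∃ v : ℝ≥0, (v : ℝ) = (s⁻¹) ^ 2 := ⟨NNReal.mk ((s⁻¹) ^ 2) (sq_nonneg _), rfl⟩
  have hv0 : v ≠ 0 := by
    intro h
    rw [h, NNReal.coe_zero] at hv
    have : 0 < (s⁻¹) ^ 2 := by positivity
    linarith
  have h1 : (gaussianReal 0 1).withDensity (w s) = gaussianReal 0 v := by
    rw [gaussianReal_of_var_ne_zero 0 one_ne_zero, gaussianReal_of_var_ne_zero 0 hv0,
      ← withDensity_mul volume (measurable_gaussianPDF 0 1) (measurable_w s)]
    congr 1
    funext x
    simp only [Pi.mul_apply, gaussianPDF, w, gaussianPDFReal]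
    rw [← ENNReal.ofReal_mul (by positivity)]
    congr 1
    have e1 : (√(2 * Real.pi * ((1 : ℝ≥0) : ℝ)))⁻¹ * s = (√(2 * Real.pi * (v : ℝ)))⁻¹ := by
      rw [hv, NNReal.coe_one, mul_one, Real.sqrt_mul (by positivity) ((s⁻¹) ^ 2),
        Real.sqrt_sq (by positivity), mul_inv, inv_inv]
    have e2 : Real.exp (-(x - 0) ^ 2 / (2 * ((1 : ℝ≥0) : ℝ))) *
        Real.exp ((1 - s ^ 2) / 2 * x ^ 2) = Real.exp (-(x - 0) ^ 2 / (2 * (v : ℝ))) := by
      rw [← Real.exp_add]
      congr 1
      rw [hv, NNReal.coe_one]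
      field_simp
      ring
    rw [← e1, ← e2]
    ring
  rw [h1, gaussianReal_map_const_mul (μ := 0) (v := v) s, mul_zero]
  congr 1
  apply NNReal.coe_injective
  rw [NNReal.coe_mul, hv, NNReal.coe_one]
  change s ^ 2 * s⁻¹ ^ 2 = 1
  field_simp

lemma multi {s : ℝ} (hs : 0 < s) :
    ((Measure.pi fun _ : ι => gaussianReal 0 1).withDensity (fun g => ∏ i, w s (g i))).map
      (fun g i => s * g i) = Measure.pi fun _ : ι => gaussianReal 0 1 := by
  symm
  refine Measure.pi_eq fun S hS => ?_
  have hT : Measurable fun g : ι → ℝ => fun i => s * g i := by fun_prop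
  rw [Measure.map_apply hT (MeasurableSet.univ_pi hS),
    withDensity_apply _ (hT (MeasurableSet.univ_pi hS)),
    ← lintegral_indicator (hT (MeasurableSet.univ_pi hS))]
  have h1 : ∀ g : ι → ℝ, ((fun g : ι → ℝ => fun i => s * g i) ⁻¹' (Set.univ.pi S)).indicator
      (fun g => ∏ i, w s (g i)) g =
      ∏ i, ((fun x => s * x) ⁻¹' (S i)).indicator (w s) (g i) := by
    intro g
    by_cases hg : ∀ i, s * g i ∈ S i
    · rw [Set.indicator_of_mem (by simpa [Set.mem_pi] using hg)]
      refine Finset.prod_congr rfl fun i _ => ?_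
      rw [Set.indicator_of_mem (by simpa using hg i)]
    · rw [Set.indicator_of_notMem (by simpa [Set.mem_pi] using hg)]
      obtain ⟨i, hi⟩ := not_forall.1 hg
      symm
      refine Finset.prod_eq_zero (Finset.mem_univ i) ?_
      rw [Set.indicator_of_notMem (by simpa using hi)]
  simp_rw [h1]
  have hm : ∀ i : ι, Measurable (((fun x => s * x) ⁻¹' (S i)).indicator (w s)) := fun i =>
    (measurable_w s).indicator ((measurable_const_mul s) (hS i))
  have hind : iIndepFun (fun (i : ι) (g : ι → ℝ) =>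
      ((fun x => s * x) ⁻¹' (S i)).indicator (w s) (g i))
      (Measure.pi fun _ : ι => gaussianReal 0 1) :=
    iIndepFun_pi fun i => (hm i).aemeasurable
  rw [lintegral_prod_eq_prod_lintegral_of_indepFun Finset.univ _ hind
    (fun i => (hm i).comp (measurable_pi_apply i))]
  refine Finset.prod_congr rfl fun i _ => ?_
  have h3 : ∫⁻ g : ι → ℝ, ((fun x => s * x) ⁻¹' (S i)).indicator (w s) (g i)
      ∂(Measure.pi fun _ : ι => gaussianReal 0 1) =
      ∫⁻ x, ((fun x => s * x) ⁻¹' (S i)).indicator (w s) x ∂(gaussianReal 0 1) :=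
    (measurePreserving_eval (fun _ : ι => gaussianReal 0 1) i).lintegral_comp (hm i)
  rw [h3, lintegral_indicator ((measurable_const_mul s) (hS i)),
    ← withDensity_apply _ ((measurable_const_mul s) (hS i)),
    ← Measure.map_apply (measurable_const_mul s) (hS i)]
  exact congrArg (fun m => m (S i)) (oneD hs)

/-- the relative entropy of one coordinate -/
noncomputable def ent (s : ℝ) : ℝ := -Real.log s - (1 - s ^ 2) / 2

/-- lower bound by change of measure -/
theorem change {s : ℝ} (hs : 0 < s) (hs1 : s ≤ 1) {A : Set (ι → ℝ)} (hA : MeasurableSet A)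
    (t : ℝ) :
    ENNReal.ofReal (Real.exp (-(Fintype.card ι * ent s + (1 - s ^ 2) / 2 * t))) *
      (Measure.pi fun _ : ι => gaussianReal 0 1)
        {g | (fun i => s * g i) ∈ A ∧ Fintype.card ι - t ≤ ∑ i, g i ^ 2} ≤
    (Measure.pi fun _ : ι => gaussianReal 0 1) A := by
  have hT : Measurable fun g : ι → ℝ => fun i => s * g i := by fun_prop
  obtain ⟨E, hE⟩ : ∃ E : Set (ι → ℝ), E =
    {g | (fun i => s * g i) ∈ A ∧ Fintype.card ι - t ≤ ∑ i, g i ^ 2} := ⟨_, rfl⟩
  have hEm : MeasurableSet E := by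
    rw [hE]
    have h5 : Measurable fun g : ι → ℝ => ∑ i, g i ^ 2 := by fun_prop
    exact (hT hA).inter (measurableSet_le measurable_const h5)
  rw [← hE]
  have hEA : E ⊆ (fun g : ι → ℝ => fun i => s * g i) ⁻¹' A := by
    rw [hE]
    intro g hg
    exact hg.1
  calc ENNReal.ofReal (Real.exp (-(Fintype.card ι * ent s + (1 - s ^ 2) / 2 * t))) *
      (Measure.pi fun _ : ι => gaussianReal 0 1) E
      = ∫⁻ _ in E, ENNReal.ofReal (Real.exp (-(Fintype.card ι * ent s + (1 - s ^ 2) / 2 * t)))
        ∂(Measure.pi fun _ : ι => gaussianReal 0 1) := by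
        rw [setLIntegral_const]
    _ ≤ ∫⁻ g in E, ∏ i, w s (g i) ∂(Measure.pi fun _ : ι => gaussianReal 0 1) := by
        refine setLIntegral_mono (by
          refine Finset.measurable_prod _ fun i _ => (measurable_w s).comp
            (measurable_pi_apply i)) fun g hg => ?_
        rw [hE] at hg
        have h1 : ∏ i, w s (g i) = ENNReal.ofReal (∏ i, (s * Real.exp ((1 - s ^ 2) / 2 *
            g i ^ 2))) := by
          rw [ENNReal.ofReal_prod_of_nonneg fun i _ => by positivity]
          rfl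
        rw [h1]
        refine ENNReal.ofReal_le_ofReal ?_
        have h2 : ∏ i, (s * Real.exp ((1 - s ^ 2) / 2 * g i ^ 2)) =
            Real.exp (Fintype.card ι * Real.log s + (1 - s ^ 2) / 2 * ∑ i, g i ^ 2) := by
          rw [Finset.prod_mul_distrib, Finset.prod_const, ← Real.exp_sum, Real.exp_add,
            Finset.card_univ, Finset.mul_sum]
          congr 1
          rw [mul_comm, Real.exp_mul, Real.exp_log hs, Real.rpow_natCast]
        rw [h2]
        refine Real.exp_le_exp.2 ?_
        have h3 : 0 ≤ 1 - s ^ 2 := by nlinarith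
        have h4 := mul_le_mul_of_nonneg_left hg.2 (by linarith : 0 ≤ (1 - s ^ 2) / 2)
        unfold ent
        nlinarith
    _ = (Measure.pi fun _ : ι => gaussianReal 0 1).withDensity (fun g => ∏ i, w s (g i)) E := by
        rw [withDensity_apply _ hEm]
    _ ≤ (Measure.pi fun _ : ι => gaussianReal 0 1).withDensity (fun g => ∏ i, w s (g i))
        ((fun g : ι → ℝ => fun i => s * g i) ⁻¹' A) := measure_mono hEA
    _ = (((Measure.pi fun _ : ι => gaussianReal 0 1).withDensity
        (fun g => ∏ i, w s (g i))).map (fun g i => s * g i)) A := by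
        rw [Measure.map_apply hT hA]
    _ = _ := by rw [multi hs]

end Vale.Agent.P146.H144
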