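import Vale.Agent.P146.R2.H144.TrGA
import Vale.Agent.P146.R2.H729.TrSpec

/-!
# P146: row G, the pressure of the transported matrix
-/

open MeasureTheory ProbabilityTheory Matrix Filter Topology

namespace Vale.Agent.P146.R2.H144

open Vale.Agent.P166 Vale.Agent.P146 Vale.Agent.P146.H605 Vale.Agent.P146.R3
open Vale.Agent.P146.R2.H432 (cheb)
open Vale.Agent.P146.R3.H432 (Qm Om)
open Vale.Agent.P146.R3.H952 (MinProf)
open Vale.Agent.P146.Sk (Wm Ix)
open Vale.Agent.P146.R2.H729.Tr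

lemma exists_fk {β : ℝ} (hβ : 1 ≤ β) {x : ℝ → ℝ} (hx : MinProf β x) (k : ℕ) :
    ∃ f : ℝ → ℝ, f 0 = Sh.P0 β ∧ HasDerivAt f (mk β x k) 0 ∧
      ∀ s, ∀ᵐ ω ∂Qm, Tendsto (fun N => pressure N 1
        (β • Wm N (R3.H432.zz N ω) + (2 * s) • cheb k (Wm N (R3.H432.zz N ω)))) atTop (𝓝 (f s)) := by
  obtain ⟨f, hf, hl⟩ := R3.H501.exists_lim β k (fun s => R3.H49.isProb_muS β k s)
    (fun s => R3.H49.isCompact_support β k s)
  have h1 := hl Om Qm (fun N ω => β • Wm N (R3.H432.zz N ω)) (fun N ω => cheb k (Wm N (R3.H432.zz N ω)))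
    (fun s => R3.H432.ensemble β k s)
  have h2 : ConvexOn ℝ Set.univ f :=
    R3.H501.convex_f Qm (fun N ω => β • Wm N (R3.H432.zz N ω)) (fun N ω => cheb k (Wm N (R3.H432.zz N ω))) f h1
  refine ⟨f, ?_, R3.H952.deriv_prof (by linarith) hx k h2 hf, h1⟩
  have h3 := hf 0
  rw [R3.H501.muS_zero] at h3
  exact h3.unique (R3.H501.glb_sk hβ)

/-- **Row G.** -/
theorem stG : StG := by
  intro β hβ x hx L c ε hε
  choose f hf0 hfd hlim using fun k => exists_fk hβ hx k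
  exact core Qm (fun N ω => Wm N (R3.H432.zz N ω)) β (Sh.P0 β) (mk β x) f hf0 hfd hlim L c ε hε

end Vale.Agent.P146.R2.H144
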