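import Vale.Agent.P146.R2.H729.TrDef
import Vale.Agent.P146.R3.H501.Sub

/-!
# P146: the pressure of the transported matrix, by convexity
-/

open MeasureTheory Matrix Filter Topology

namespace Vale.Agent.P146.R2.H144

open Vale.Agent.P166
open Vale.Agent.P146.R2.H432 (cheb)
open Vale.Agent.P146.R2.H729.Tr

/-- the pressure is a convex function of the matrix -/
lemma pr_convexOn (N : ℕ) :
    ConvexOn ℝ Set.univ fun J : Matrix (Fin N) (Fin N) ℝ => pressure N 1 J := by
  refine ⟨convex_univ, fun x _ y _ a b ha hb hab => ?_⟩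
  have h := (R3.H501.pr_convex x (y - x)).2 (Set.mem_univ 0) (Set.mem_univ (1 / 2)) ha hb hab
  have e1 : x + (2 * (a • (0 : ℝ) + b • (1 / 2 : ℝ))) • (y - x) = a • x + b • y := by
    have e : 2 * (a • (0 : ℝ) + b • (1 / 2 : ℝ)) = b := by
      simp only [smul_eq_mul]; ring
    rw [e]
    have ea : a = 1 - b := by linarith
    rw [ea, sub_smul, one_smul, smul_sub]
    abel
  have e2 : x + (2 * (0 : ℝ)) • (y - x) = x := by simp
  have e3 : x + (2 * (1 / 2 : ℝ)) • (y - x) = y := by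
    have : 2 * (1 / 2 : ℝ) = 1 := by norm_num
    rw [this, one_smul]
    abel
  simp only [e1, e2, e3] at h
  exact h

lemma comb {N : ℕ} (L : ℕ) (hL : 0 < L) (c : ℕ → ℝ) (β η : ℝ) (A : Matrix (Fin N) (Fin N) ℝ) :
    ∑ k ∈ Finset.range L, (1 / (L : ℝ)) •
      (β • A + (2 * (-(β * L * c k / 2) * η)) • cheb (k + 1) A) = β • (A - η • hm L c A) := by
  have hL' : (L : ℝ) ≠ 0 := by exact_mod_cast hL.ne'
  unfold hm
  simp only [smul_add, Finset.sum_add_distrib]
  rw [Finset.sum_const, Finset.card_range, smul_sub, sub_eq_add_neg]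
  congr 1
  · rw [← Nat.cast_smul_eq_nsmul ℝ, smul_smul, mul_one_div_cancel hL', one_smul]
  · rw [← neg_smul, Finset.smul_sum, Finset.smul_sum]
    refine Finset.sum_congr rfl fun k _ => ?_
    rw [smul_smul, smul_smul, smul_smul]
    congr 1
    field_simp

theorem core {Ω : Type} [MeasurableSpace Ω] (Q : Measure Ω)
    (W : (N : ℕ) → Ω → Matrix (Fin N) (Fin N) ℝ) (β P : ℝ) (m : ℕ → ℝ) (f : ℕ → ℝ → ℝ)
    (f0 : ∀ k, f k 0 = P) (fd : ∀ k, HasDerivAt (f k) (m k) 0)
    (hlim : ∀ k s, ∀ᵐ ω ∂Q, Tendsto (fun N =>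
      pressure N 1 (β • W N ω + (2 * s) • cheb k (W N ω))) atTop (𝓝 (f k s)))
    (L : ℕ) (c : ℕ → ℝ) (ε : ℝ) (hε : 0 < ε) :
    ∃ δ : ℝ, 0 < δ ∧ ∀ η : ℝ, 0 < η → η ≤ δ → ∀ᵐ ω ∂Q, ∀ᶠ N : ℕ in atTop,
      pressure N 1 (β • (W N ω - η • hm L c (W N ω))) ≤
        P - η * (β / 2 * ∑ k ∈ Finset.range L, c k * m (k + 1) - ε) := by
  rcases Nat.eq_zero_or_pos L with rfl | hL
  · refine ⟨1, one_pos, fun η hη _ => ?_⟩
    filter_upwards [hlim 0 0] with ω h
    rw [f0] at h
    filter_upwards [h.eventually (gt_mem_nhds (show P < P + η * ε by nlinarith))] with N h1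
    simp only [mul_zero, zero_smul, add_zero] at h1
    simp only [hm, Finset.range_zero, Finset.sum_empty, smul_zero, sub_zero, mul_zero, zero_sub,
      mul_neg, sub_neg_eq_add]
    exact h1.le
  have hL' : (0 : ℝ) < L := by exact_mod_cast hL
  set S : ℝ := ∑ k ∈ Finset.range L, |β * c k| with hS
  have hS0 : 0 ≤ S := Finset.sum_nonneg fun _ _ => abs_nonneg _
  set e : ℝ := ε / (S + 1) with he
  have he0 : 0 < e := by positivity
  have heS : e * S ≤ ε := by
    rw [he, div_mul_eq_mul_div, div_le_iff₀ (by positivity)]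
    nlinarith
  -- the directions
  have h1 : ∀ᶠ η : ℝ in 𝓝 0, ∀ k ∈ Finset.range L,
      |f (k + 1) (-(β * L * c k / 2) * η) - P - (-(β * L * c k / 2) * η) * m (k + 1)| ≤
        e * |(-(β * L * c k / 2) * η)| := by
    rw [Finset.eventually_all]
    intro k _
    have h2 := fd (k + 1)
    rw [hasDerivAt_iff_isLittleO, Asymptotics.isLittleO_iff] at h2
    have h3 := h2 he0
    have h4 : Tendsto (fun η : ℝ => -(β * L * c k / 2) * η) (𝓝 0) (𝓝 0) := by
      have : Tendsto (fun η : ℝ => -(β * L * c k / 2) * η) (𝓝 0)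
          (𝓝 (-(β * L * c k / 2) * 0)) := tendsto_id.const_mul _
      simpa using this
    filter_upwards [h4.eventually h3] with η h5
    simpa only [sub_zero, smul_eq_mul, Real.norm_eq_abs, f0] using h5
  rw [Metric.eventually_nhds_iff] at h1
  obtain ⟨d, hd, h1⟩ := h1
  refine ⟨d / 2, by positivity, fun η hη hηd => ?_⟩
  have h2 := h1 (y := η) (by rw [Real.dist_eq, sub_zero, abs_of_pos hη]; linarith)
  have h3 : ∀ᵐ ω ∂Q, ∀ k : ℕ, Tendsto (fun N =>
      pressure N 1 (β • W N ω + (2 * (-(β * L * c k / 2) * η)) • cheb (k + 1) (W N ω))) atTop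
        (𝓝 (f (k + 1) (-(β * L * c k / 2) * η))) :=
    ae_all_iff.2 fun k => hlim (k + 1) _
  filter_upwards [h3] with ω h4
  have h5 : ∀ᶠ N : ℕ in atTop, ∀ k ∈ Finset.range L,
      pressure N 1 (β • W N ω + (2 * (-(β * L * c k / 2) * η)) • cheb (k + 1) (W N ω)) <
        f (k + 1) (-(β * L * c k / 2) * η) + η * ε / 2 := by
    rw [Finset.eventually_all]
    intro k _
    exact (h4 k).eventually (gt_mem_nhds (by nlinarith [mul_pos hη hε]))
  filter_upwards [h5] with N h6
  have h7 := (pr_convexOn N).map_sum_le (t := Finset.range L) (w := fun _ => 1 / (L : ℝ))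
    (p := fun k => β • W N ω + (2 * (-(β * L * c k / 2) * η)) • cheb (k + 1) (W N ω))
    (fun _ _ => by positivity)
    (by rw [Finset.sum_const, Finset.card_range, nsmul_eq_mul, mul_one_div_cancel hL'.ne'])
    (fun _ _ => Set.mem_univ _)
  rw [comb L hL] at h7
  refine h7.trans ?_
  have h8 : ∀ k ∈ Finset.range L, (1 / (L : ℝ)) •
      pressure N 1 (β • W N ω + (2 * (-(β * L * c k / 2) * η)) • cheb (k + 1) (W N ω)) ≤
      (1 / (L : ℝ)) * (P + η * ε / 2) - η * (β / 2) * (c k * m (k + 1)) +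
        e * (η / 2) * |β * c k| := by
    intro k hk
    have h9 := (abs_le.1 (h2 k hk)).2
    have h10 := (h6 k hk).le
    have h11 : |-(β * L * c k / 2) * η| = L * (η / 2 * |β * c k|) := by
      have : -(β * L * c k / 2) * η = -((L * (η / 2)) * (β * c k)) := by ring
      rw [this, abs_neg, abs_mul, abs_of_pos (by positivity)]
      ring
    rw [h11] at h9
    rw [smul_eq_mul]
    have h12 : pressure N 1 (β • W N ω + (2 * (-(β * L * c k / 2) * η)) •
        cheb (k + 1) (W N ω)) ≤ P + η * ε / 2 + -(β * L * c k / 2) * η * m (k + 1) +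
          e * (L * (η / 2 * |β * c k|)) := by linarith
    refine (mul_le_mul_of_nonneg_left h12 (by positivity)).trans (le_of_eq ?_)
    field_simp
    ring
  refine (Finset.sum_le_sum h8).trans ?_
  rw [Finset.sum_add_distrib, Finset.sum_sub_distrib, Finset.sum_const, Finset.card_range,
    nsmul_eq_mul, ← Finset.mul_sum, ← Finset.mul_sum, ← hS]
  have h13 : (L : ℝ) * (1 / (L : ℝ) * (P + η * ε / 2)) = P + η * ε / 2 := by
    field_simp
  rw [h13]
  have h14 : e * (η / 2) * S ≤ η / 2 * ε := by nlinarith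
  linarith

end Vale.Agent.P146.R2.H144
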