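import Vale.Agent.P146.R2.H952.XDef
import Vale.Agent.P146.R3.H49.SC

/-!
# P146: the Stieltjes transform of a perturbed semicircle law near the edge
-/

open MeasureTheory Filter Topology Set

namespace Vale.Agent.P146.R2.H144.X

open Vale.Agent.P146.R3 (chR sc muS)

lemma sin_sq_eq (θ : ℝ) :
    Real.sin θ ^ 2 = (2 - 2 * Real.cos θ) * (1 - (2 - 2 * Real.cos θ) / 4) := by
  have := Real.sin_sq_add_cos_sq θ
  nlinarith

lemma u_le (θ : ℝ) : 2 - 2 * Real.cos θ ≤ θ ^ 2 := by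
  have := Real.one_sub_sq_div_two_le_cos (x := θ)
  linarith

lemma u_ge {θ : ℝ} (h0 : 0 ≤ θ) (h1 : θ ≤ Real.pi) :
    4 * θ ^ 2 / Real.pi ^ 2 ≤ 2 - 2 * Real.cos θ := by
  have h2 := Real.mul_le_sin (x := θ / 2) (by linarith) (by linarith)
  have h3 : Real.cos θ = 1 - 2 * Real.sin (θ / 2) ^ 2 := by
    have h4 := Real.cos_two_mul (θ / 2)
    have h5 := Real.sin_sq_add_cos_sq (θ / 2)
    have h6 : 2 * (θ / 2) = θ := by ring
    rw [h6] at h4
    nlinarith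
  have h7 : 0 ≤ 2 / Real.pi * (θ / 2) := by have := Real.pi_pos; positivity
  have h8 := pow_le_pow_left₀ h7 h2 2
  have h9 : (2 / Real.pi * (θ / 2)) ^ 2 = θ ^ 2 / Real.pi ^ 2 := by
    have := Real.pi_pos
    field_simp
  rw [h9] at h8
  rw [h3]
  have h10 : 4 * θ ^ 2 / Real.pi ^ 2 = 4 * (θ ^ 2 / Real.pi ^ 2) := by ring
  rw [h10]
  linarith

/-- **Row H1.** -/
theorem stH1 : Vale.Agent.P146.R2.H952.X.StH1 := by
  intro c hc hc1
  have hpi := Real.pi_pos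
  have hpi3 := Real.pi_gt_three
  set τ : ℝ := c / (4 * Real.pi ^ 2) with hτ
  have hτ0 : 0 < τ := by positivity
  have hτc : τ ≤ c / 36 := by
    rw [hτ]
    refine div_le_div_of_nonneg_left hc.le (by norm_num) ?_
    nlinarith
  refine ⟨τ, c / (4 * Real.pi), hτ0, by linarith, by positivity, ?_⟩
  intro ε hε hε1 h hh h0 h1
  have hsε : 0 < √ε := Real.sqrt_pos.2 hε
  have hsε1 : √ε ≤ 1 := by
    have := Real.sqrt_le_sqrt hε1
    rwa [Real.sqrt_one] at this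
  have hsq : √ε * √ε = ε := Real.mul_self_sqrt hε.le
  -- the denominator is positive
  have hx : ∀ θ : ℝ, 2 * Real.cos θ ∈ Icc (-2 : ℝ) 2 := fun θ =>
    ⟨by linarith [Real.neg_one_le_cos θ], by linarith [Real.cos_le_one θ]⟩
  have hτε : τ * ε ≤ ε / 36 := by nlinarith
  have hD : ∀ θ : ℝ, 0 < 2 - τ * ε - 2 * Real.cos θ + h (2 * Real.cos θ) := by
    intro θ
    by_cases hu : 2 - 2 * Real.cos θ ≤ ε
    · have h2 := h1 (2 * Real.cos θ) ⟨by linarith, (hx θ).2⟩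
      have h3 := (hx θ).2
      nlinarith
    · rw [not_le] at hu
      have h2 := h0 _ (hx θ)
      linarith
  have hcont : Continuous fun θ : ℝ => Real.sin θ ^ 2 *
      (2 - τ * ε - 2 * Real.cos θ + h (2 * Real.cos θ))⁻¹ := by
    refine Continuous.mul (by fun_prop) (Continuous.inv₀ (by fun_prop) fun θ => (hD θ).ne')
  -- the two pointwise bounds
  have hb1 : ∀ θ ∈ Icc (0 : ℝ) (√ε), Real.sin θ ^ 2 *
      (2 - τ * ε - 2 * Real.cos θ + h (2 * Real.cos θ))⁻¹ ≤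
        (1 / 2 + 1 / 2 * Real.cos θ) - c / 4 := by
    intro θ hθ
    have hu1 : 2 - 2 * Real.cos θ ≤ ε := by
      refine (u_le θ).trans ?_
      have := pow_le_pow_left₀ hθ.1 hθ.2 2
      rw [sq √ε, hsq] at this
      exact this
    have hu0 : 0 ≤ 2 - 2 * Real.cos θ := by linarith [(hx θ).2]
    have h2 := h1 (2 * Real.cos θ) ⟨by linarith, (hx θ).2⟩
    rw [sin_sq_eq, ← div_eq_mul_inv, div_le_iff₀ (hD θ)]
    obtain ⟨u, hu⟩ : ∃ u, u = 2 - 2 * Real.cos θ := ⟨_, rfl⟩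
    have hcos : Real.cos θ = 1 - u / 2 := by linarith
    rw [← hu] at hu1 hu0 ⊢
    rw [hcos] at h2 ⊢
    obtain ⟨H, hH⟩ : ∃ H, H = h (2 * (1 - u / 2)) := ⟨_, rfl⟩
    rw [← hH] at h2 ⊢
    have e1 : (1 / 2 + 1 / 2 * (1 - u / 2)) - c / 4 = 1 - u / 4 - c / 4 := by ring
    have e2 : 2 - τ * ε - 2 * (1 - u / 2) + H = u - τ * ε + H := by ring
    rw [e1, e2]
    have h3 : 0 ≤ 1 - u / 4 - c / 4 := by linarith
    have h4 : u + 35 / 36 * (c * ε) ≤ u - τ * ε + H := by nlinarith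
    refine le_trans ?_ (mul_le_mul_of_nonneg_left h4 h3)
    nlinarith [mul_nonneg hc.le hε.le, mul_nonneg hu0 hc.le, mul_nonneg hc.le (sub_nonneg.2 hu1),
      mul_nonneg (mul_nonneg hc.le hε.le) (sub_nonneg.2 hu1),
      mul_nonneg (mul_nonneg hc.le hε.le) (sub_nonneg.2 hc1),
      mul_nonneg (mul_nonneg hc.le hε.le) (sub_nonneg.2 hε1)]
  have hb2 : ∀ θ ∈ Icc (√ε) Real.pi, Real.sin θ ^ 2 *
      (2 - τ * ε - 2 * Real.cos θ + h (2 * Real.cos θ))⁻¹ ≤
        (1 / 2 + 1 / 2 * Real.cos θ) + (τ * ε * Real.pi ^ 2 / 2) * (θ ^ 2)⁻¹ := by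
    intro θ hθ
    have hθ0 : 0 < θ := hsε.trans_le hθ.1
    have hu2 := u_ge hθ0.le hθ.2
    have hu4 : 2 - 2 * Real.cos θ ≤ 4 := by linarith [(hx θ).1]
    have hcp : 0 ≤ 1 / 2 + 1 / 2 * Real.cos θ := by linarith [Real.neg_one_le_cos θ]
    have hlast : 0 ≤ (τ * ε * Real.pi ^ 2 / 2) * (θ ^ 2)⁻¹ := by positivity
    have hu0 : 0 < 2 - 2 * Real.cos θ := lt_of_lt_of_le (by positivity) hu2
    rw [sin_sq_eq]
    by_cases hu1 : 2 - 2 * Real.cos θ ≤ ε
    · have h2 := h1 (2 * Real.cos θ) ⟨by linarith, (hx θ).2⟩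
      have h3 : (2 - 2 * Real.cos θ) * (2 - τ * ε - 2 * Real.cos θ + h (2 * Real.cos θ))⁻¹ ≤
          1 := by
        rw [← div_eq_mul_inv, div_le_one (hD θ)]
        nlinarith
      have h4 := mul_le_mul_of_nonneg_left h3 hcp
      have e : (2 - 2 * Real.cos θ) * (1 - (2 - 2 * Real.cos θ) / 4) *
          (2 - τ * ε - 2 * Real.cos θ + h (2 * Real.cos θ))⁻¹ =
          (1 / 2 + 1 / 2 * Real.cos θ) * ((2 - 2 * Real.cos θ) *
            (2 - τ * ε - 2 * Real.cos θ + h (2 * Real.cos θ))⁻¹) := by ring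
      rw [e]
      linarith
    · rw [not_le] at hu1
      have h2 := h0 _ (hx θ)
      have h3 : (2 - 2 * Real.cos θ) * (2 - τ * ε - 2 * Real.cos θ + h (2 * Real.cos θ))⁻¹ ≤
          1 + 2 * (τ * ε) * (2 - 2 * Real.cos θ)⁻¹ := by
        rw [← div_eq_mul_inv, div_le_iff₀ (hD θ)]
        obtain ⟨u, hu⟩ : ∃ u, u = 2 - 2 * Real.cos θ := ⟨_, rfl⟩
        have hcos : 2 - τ * ε - 2 * Real.cos θ = u - τ * ε := by linarith
        rw [← hu] at hu0 hu1 ⊢
        rw [hcos]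
        have h5 : u * u⁻¹ = 1 := mul_inv_cancel₀ hu0.ne'
        have h6 : 0 < u⁻¹ := inv_pos.2 hu0
        have h7 : ε * u⁻¹ ≤ 1 := by
          rw [← h5]
          exact mul_le_mul_of_nonneg_right hu1.le h6.le
        have h8 : 0 ≤ 2 * (τ * ε) * u⁻¹ * h (2 * Real.cos θ) := by positivity
        have h9 : (1 + 2 * (τ * ε) * u⁻¹) * (u - τ * ε) = u + τ * ε -
            2 * (τ * ε) * τ * (ε * u⁻¹) := by
          have : (1 + 2 * (τ * ε) * u⁻¹) * (u - τ * ε) = u - τ * ε + 2 * (τ * ε) * (u * u⁻¹) -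
            2 * (τ * ε) * τ * (ε * u⁻¹) := by ring
          rw [this, h5]
          ring
        have h10 : 2 * (τ * ε) * τ * (ε * u⁻¹) ≤ τ * ε := by
          have h11 : 2 * (τ * ε) * τ * (ε * u⁻¹) ≤ 2 * (τ * ε) * τ * 1 :=
            mul_le_mul_of_nonneg_left h7 (by positivity)
          nlinarith [mul_pos hτ0 hε]
        nlinarith
      have h4 := mul_le_mul_of_nonneg_left h3 hcp
      have e : (2 - 2 * Real.cos θ) * (1 - (2 - 2 * Real.cos θ) / 4) *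
          (2 - τ * ε - 2 * Real.cos θ + h (2 * Real.cos θ))⁻¹ =
          (1 / 2 + 1 / 2 * Real.cos θ) * ((2 - 2 * Real.cos θ) *
            (2 - τ * ε - 2 * Real.cos θ + h (2 * Real.cos θ))⁻¹) := by ring
      rw [e]
      refine h4.trans ?_
      have h5 : (2 - 2 * Real.cos θ)⁻¹ ≤ Real.pi ^ 2 / 4 * (θ ^ 2)⁻¹ := by
        have h6 : (4 * θ ^ 2 / Real.pi ^ 2)⁻¹ = Real.pi ^ 2 / 4 * (θ ^ 2)⁻¹ := by
          field_simp
        rw [← h6]
        exact inv_anti₀ (by positivity) hu2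
      have h7 : 1 / 2 + 1 / 2 * Real.cos θ ≤ 1 := by linarith [Real.cos_le_one θ]
      have h8 : 0 ≤ 2 * (τ * ε) * (2 - 2 * Real.cos θ)⁻¹ := by
        have := inv_pos.2 hu0
        positivity
      have h9 : (1 / 2 + 1 / 2 * Real.cos θ) * (2 * (τ * ε) * (2 - 2 * Real.cos θ)⁻¹) ≤
          2 * (τ * ε) * (2 - 2 * Real.cos θ)⁻¹ := mul_le_of_le_one_left h8 h7
      have h10 : 2 * (τ * ε) * (2 - 2 * Real.cos θ)⁻¹ ≤
          2 * (τ * ε) * (Real.pi ^ 2 / 4 * (θ ^ 2)⁻¹) :=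
        mul_le_mul_of_nonneg_left h5 (by positivity)
      have h11 : 2 * (τ * ε) * (Real.pi ^ 2 / 4 * (θ ^ 2)⁻¹) =
          (τ * ε * Real.pi ^ 2 / 2) * (θ ^ 2)⁻¹ := by ring
      rw [mul_add, mul_one]
      linarith
  -- the integral
  have hmeas : Measurable fun x : ℝ => (2 - τ * ε - x + h x)⁻¹ :=
    ((measurable_const.sub measurable_id).add hh.measurable).inv
  rw [Vale.Agent.P146.R3.H49.integral_sc hmeas]
  have e1 : ∀ θ : ℝ, 2 / Real.pi * Real.sin θ ^ 2 *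
      (2 - τ * ε - 2 * Real.cos θ + h (2 * Real.cos θ))⁻¹ = 2 / Real.pi * (Real.sin θ ^ 2 *
        (2 - τ * ε - 2 * Real.cos θ + h (2 * Real.cos θ))⁻¹) := fun θ => by ring
  simp only [e1]
  rw [intervalIntegral.integral_const_mul]
  have hiF : ∀ a b : ℝ, IntervalIntegrable (fun θ : ℝ => Real.sin θ ^ 2 *
      (2 - τ * ε - 2 * Real.cos θ + h (2 * Real.cos θ))⁻¹) volume a b := fun a b =>
    hcont.intervalIntegrable a b
  have hiC : ∀ a b : ℝ, IntervalIntegrable (fun θ : ℝ => 1 / 2 + 1 / 2 * Real.cos θ) volume a b :=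
    fun a b => (by fun_prop : Continuous fun θ : ℝ => 1 / 2 + 1 / 2 * Real.cos θ).intervalIntegrable
      a b
  have hsεpi : √ε ≤ Real.pi := by linarith
  have hiI : IntervalIntegrable (fun θ : ℝ => (τ * ε * Real.pi ^ 2 / 2) * (θ ^ 2)⁻¹) volume (√ε)
      Real.pi := by
    refine ContinuousOn.intervalIntegrable ?_
    rw [uIcc_of_le hsεpi]
    refine ContinuousOn.mul continuousOn_const (ContinuousOn.inv₀ (by fun_prop) fun θ hθ => ?_)
    have : 0 < θ := hsε.trans_le hθ.1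
    positivity
  have hI1 : ∫ θ in (0 : ℝ)..√ε, Real.sin θ ^ 2 *
      (2 - τ * ε - 2 * Real.cos θ + h (2 * Real.cos θ))⁻¹ ≤
        (∫ θ in (0 : ℝ)..√ε, (1 / 2 + 1 / 2 * Real.cos θ)) - c / 4 * √ε := by
    have h2 := intervalIntegral.integral_mono_on hsε.le (hiF 0 (√ε))
      ((hiC 0 (√ε)).sub intervalIntegrable_const) hb1
    rw [intervalIntegral.integral_sub (hiC _ _) intervalIntegrable_const,
      intervalIntegral.integral_const, sub_zero, smul_eq_mul] at h2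
    linarith
  have hI2 : ∫ θ in (√ε)..Real.pi, Real.sin θ ^ 2 *
      (2 - τ * ε - 2 * Real.cos θ + h (2 * Real.cos θ))⁻¹ ≤
        (∫ θ in (√ε)..Real.pi, (1 / 2 + 1 / 2 * Real.cos θ)) +
          (τ * ε * Real.pi ^ 2 / 2) * (√ε)⁻¹ := by
    have h2 := intervalIntegral.integral_mono_on hsεpi (hiF (√ε) Real.pi)
      ((hiC (√ε) Real.pi).add hiI) hb2
    rw [intervalIntegral.integral_add (hiC _ _) hiI, intervalIntegral.integral_const_mul] at h2
    have h3 : ∫ θ in (√ε)..Real.pi, (θ ^ 2)⁻¹ ≤ (√ε)⁻¹ := by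
      have h4 : ∫ θ in (√ε)..Real.pi, (θ ^ 2)⁻¹ = (√ε)⁻¹ - Real.pi⁻¹ := by
        have h5 : ∀ θ ∈ uIcc (√ε) Real.pi, HasDerivAt (fun θ : ℝ => -θ⁻¹) ((θ ^ 2)⁻¹) θ := by
          intro θ hθ
          rw [uIcc_of_le hsεpi] at hθ
          have : θ ≠ 0 := (hsε.trans_le hθ.1).ne'
          have h6 := (hasDerivAt_inv this).neg
          rwa [neg_neg] at h6
        rw [intervalIntegral.integral_eq_sub_of_hasDerivAt h5 ?_]
        · ring
        · refine ContinuousOn.intervalIntegrable ?_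
          rw [uIcc_of_le hsεpi]
          refine ContinuousOn.inv₀ (by fun_prop) fun θ hθ => ?_
          have : 0 < θ := hsε.trans_le hθ.1
          positivity
      rw [h4]
      have := inv_pos.2 hpi
      linarith
    have h4 := mul_le_mul_of_nonneg_left h3 (by positivity : 0 ≤ τ * ε * Real.pi ^ 2 / 2)
    linarith
  have hI3 : (∫ θ in (0 : ℝ)..√ε, (1 / 2 + 1 / 2 * Real.cos θ)) +
      ∫ θ in (√ε)..Real.pi, (1 / 2 + 1 / 2 * Real.cos θ) = Real.pi / 2 := by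
    rw [intervalIntegral.integral_add_adjacent_intervals (hiC _ _) (hiC _ _),
      intervalIntegral.integral_add intervalIntegrable_const
        ((by fun_prop : Continuous fun θ : ℝ => 1 / 2 * Real.cos θ).intervalIntegrable _ _),
      intervalIntegral.integral_const, intervalIntegral.integral_const_mul, integral_cos]
    simp
    ring
  rw [← intervalIntegral.integral_add_adjacent_intervals (hiF 0 (√ε)) (hiF (√ε) Real.pi)]
  have h5 : (τ * ε * Real.pi ^ 2 / 2) * (√ε)⁻¹ = c / 8 * √ε := by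
    have h6 : ε * (√ε)⁻¹ = √ε := by
      rw [← div_eq_mul_inv, div_eq_iff hsε.ne', hsq]
    have h7 : τ * Real.pi ^ 2 = c / 4 := by
      rw [hτ]; field_simp
    calc (τ * ε * Real.pi ^ 2 / 2) * (√ε)⁻¹ = (τ * Real.pi ^ 2) / 2 * (ε * (√ε)⁻¹) := by ring
      _ = c / 8 * √ε := by rw [h6, h7]; ring
  rw [h5] at hI2
  have h6 : (∫ θ in (0 : ℝ)..√ε, Real.sin θ ^ 2 *
      (2 - τ * ε - 2 * Real.cos θ + h (2 * Real.cos θ))⁻¹) + ∫ θ in (√ε)..Real.pi,
        Real.sin θ ^ 2 * (2 - τ * ε - 2 * Real.cos θ + h (2 * Real.cos θ))⁻¹ ≤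
      Real.pi / 2 - c / 8 * √ε := by linarith
  have h7 := mul_le_mul_of_nonneg_left h6 (by positivity : 0 ≤ 2 / Real.pi)
  refine h7.trans (le_of_eq ?_)
  field_simp
  ring

end Vale.Agent.P146.R2.H144.X
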