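import Vale.Agent.P146.R2.H952.XSpec

/-!
# P146: insertion of the limit profile in the variational problem of another law
-/

open MeasureTheory Filter Topology Set

namespace Vale.Agent.P146.R2.H144.X

open Vale.Agent Vale.Agent.P146.H605 Vale.Agent.P146.R3 Vale.Agent.P146.R3.H952
  Vale.Agent.P157.Par

lemma prof_cont {L : ℝ → ℝ} (h : Prof L) : ContinuousOn L (Icc 0 1) := by
  refine (LipschitzOnWith.of_dist_le_mul (K := 1) fun x hx y hy => ?_).continuousOn
  rw [NNReal.coe_one, one_mul, Real.dist_eq, Real.dist_eq]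
  exact h.abs_lip hx hy

lemma prof_mem {L : ℝ → ℝ} (h : Prof L) {y : ℝ} (hy : y ∈ Icc (0 : ℝ) 1) :
    L y ∈ Icc (0 : ℝ) 1 :=
  ⟨h.nonneg y hy, (h.le y hy).trans (by have := hy.1; linarith)⟩

lemma g_ii {L : ℝ → ℝ} (hL : Prof L) {g : ℝ → ℝ} (hg : Continuous g) :
    IntervalIntegrable (fun y => g (L y)) volume 0 1 := by
  refine ContinuousOn.intervalIntegrable ?_
  rw [uIcc_of_le zero_le_one]
  exact hg.comp_continuousOn (prof_cont hL)

/-- The limit profile of the semicircle law inserted in the variational problem of the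
law `μ`. -/
theorem rowJ {b : ℝ} (hb : 1 ≤ b) {x : ℝ → ℝ} (hx : MinProf b x) {μ : Measure ℝ}
    [IsProbabilityMeasure μ] (hc : IsCompact μ.support) {p : ℝ} (hp : IsGLB (PV 1 μ) p)
    {g : ℝ → ℝ} {M : ℝ} (hM : 0 ≤ M) (hgc : Continuous g)
    (hg : ∀ u v : ℝ, |g u - g v| ≤ M * |u - v|)
    (hR : ∀ y : ℝ, 0 < y → P166.stInv μ y - P166.stInv (muS b 0 0) y ≤ -g y) :
    p ≤ Sh.P0 b - 1 / 2 * ∫ y in (0 : ℝ)..1, g (prim x y) := by
  have hb0 : 0 < b := by linarith
  obtain ⟨hxm, hx01, hmin⟩ := hx
  refine le_of_forall_pos_le_add fun η hη => ?_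
  set c : ℝ := 1 + M with hcdef
  have hc0 : 0 < c := by positivity
  obtain ⟨K, m, q, v, hval, hv, hclose⟩ := hmin (η / c) (by positivity)
  obtain ⟨hm, hq, hq0, hq1, hlub⟩ := id hval
  have hpL := prof_lam hm hq hq1.le
  have hpX := prof_prim hxm hx01
  have hE : P166.F.Expo K m :=
    { m0 := hm.1
      mK := hm.2.1
      mono := fun l hl => (hm.2.2 l hl).le
      pos := by have := hm.2.2 0 (Nat.zero_le K); rw [hm.1] at this; exact this }
  have i1 : IntervalIntegrable (fun u => P166.Rt μ (lam K m q u)) volume 0 1 := by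
    have h := P166.F.rt2_ii hc one_pos hE hq0 hq.2 hq1.le
    simp only [one_mul] at h
    exact h
  have i2 := hypI b 0 0 K m q hm hq hq0 hq1
  have i3 := g_ii hpL hgc
  have i4 := g_ii hpX hgc
  have hpos : ∀ u : ℝ, 0 ≤ u → u < 1 → 0 < lam K m q u := fun u _ hu => lam_pos hm hq hq1 hu
  -- the value
  have h2 : v ≤ Sh.P0 b + η / c := by
    have h3 : v - η / c ≤ Sh.P0 b := by
      refine (R3.H501.glb_sk hb).2 fun w hw => ?_
      have := hv w hw
      linarith
    linarith
  have h4 : p ≤ v + (P166.specPart 1 μ K m q - P166.specPart 1 (muS b 0 0) K m q) := by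
    refine hp.1 ?_
    obtain ⟨g1, g2, g3, g4, g5⟩ := hval.shift (μ' := μ)
    exact ⟨K, m, q, g1, g2, g3, g4, g5⟩
  have e1 : ∀ ν : Measure ℝ, P166.specPart 1 ν K m q =
      1 / 2 * ∫ u in (0 : ℝ)..1, P166.Rt ν (lam K m q u) := by
    intro ν
    unfold P166.specPart lam
    simp only [one_mul]
  have h5 : P166.specPart 1 μ K m q - P166.specPart 1 (muS b 0 0) K m q ≤
      1 / 2 * ∫ u in (0 : ℝ)..1, -g (lam K m q u) := by
    rw [e1, e1, ← mul_sub, ← intervalIntegral.integral_sub i1 i2]
    refine mul_le_mul_of_nonneg_left ?_ (by norm_num)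
    refine intervalIntegral.integral_mono_on_of_le_Ioo zero_le_one (i1.sub i2) i3.neg
      fun u hu => ?_
    have h3 := hR _ (hpos u hu.1.le hu.2)
    unfold P166.Rt
    linarith
  rw [intervalIntegral.integral_neg] at h5
  -- the profiles are close
  have h6 : |(∫ y in (0 : ℝ)..1, g (lam K m q y)) - ∫ y in (0 : ℝ)..1, g (prim x y)| ≤
      M * (η / c) := by
    rw [← intervalIntegral.integral_sub i3 i4]
    have h1 := intervalIntegral.norm_integral_le_of_norm_le_const (a := (0 : ℝ)) (b := 1)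
      (f := fun y => g (lam K m q y) - g (prim x y)) (C := M * (η / c))
      (fun y hy => ?_)
    · rw [Real.norm_eq_abs] at h1
      simpa using h1
    · rw [uIoc_of_le zero_le_one] at hy
      have hy' : y ∈ Icc (0 : ℝ) 1 := ⟨hy.1.le, hy.2⟩
      rw [Real.norm_eq_abs]
      refine (hg _ _).trans ?_
      refine mul_le_mul_of_nonneg_left ?_ hM
      rw [← prim_xs hm hq hq1.le hy'.2]
      exact hclose y hy'
  have h7 := (abs_le.1 h6).1
  have h8 : η / c * c = η := div_mul_cancel₀ η hc0.ne'
  have h9 : η / c + M * (η / c) = η := by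
    rw [← h8]
    simp only [hcdef]
    field_simp
  have h10 : 0 ≤ M * (η / c) := by positivity
  linarith

/-- **Row J.** -/
theorem stJ : Vale.Agent.P146.R2.H952.X.StJ := by
  intro β hβ x hx μ _ hc h0 g κ y0 hg hy0 hy01 h1 h2 h3 v hv
  have hb0 : 0 < β := by linarith
  set d : ℝ := β * (∫ u in y0..1, x u) - (1 - κ) with hd
  have hd0 : 0 < d := by linarith
  have hpX := prof_prim hx.1 hx.2.1
  set G : ℝ → ℝ := fun t => -h0 + g * min 1 (max 0 ((β * t - (1 - κ)) / d)) with hG
  have hGc : Continuous G := by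
    simp only [hG]
    fun_prop
  have hGl : ∀ u v : ℝ, |G u - G v| ≤ g * (β / d) * |u - v| := by
    intro u v
    have e : G u - G v = g * (min 1 (max 0 ((β * u - (1 - κ)) / d)) -
        min 1 (max 0 ((β * v - (1 - κ)) / d))) := by
      simp only [hG]; ring
    rw [e, abs_mul, abs_of_nonneg hg, mul_assoc]
    refine mul_le_mul_of_nonneg_left ?_ hg
    have e1 : |min 1 (max 0 ((β * u - (1 - κ)) / d)) - min 1 (max 0 ((β * v - (1 - κ)) / d))| ≤
        |(β * u - (1 - κ)) / d - (β * v - (1 - κ)) / d| := by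
      refine (abs_min_sub_min_le_max _ _ _ _).trans ?_
      rw [sub_self, abs_zero, max_eq_right (abs_nonneg _)]
      refine (abs_max_sub_max_le_max _ _ _ _).trans ?_
      rw [sub_self, abs_zero, max_eq_right (abs_nonneg _)]
    have e2 : |(β * u - (1 - κ)) / d - (β * v - (1 - κ)) / d| = β / d * |u - v| := by
      have : (β * u - (1 - κ)) / d - (β * v - (1 - κ)) / d = β / d * (u - v) := by ring
      rw [this, abs_mul, abs_of_nonneg (by positivity)]
    rw [← e2]
    exact e1
  have h4 := rowJ hβ hx hc hv (g := G) (M := g * (β / d)) (by positivity) hGc hGl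
    (fun y hy => by
      have h5 : min 1 (max 0 ((β * y - (1 - κ)) / d)) ≤ 1 := min_le_left _ _
      by_cases hy1 : 1 - κ ≤ β * y
      · have h6 := h2 y hy hy1
        have h7 := mul_le_mul_of_nonneg_left h5 hg
        simp only [hG]
        linarith
      · rw [not_le] at hy1
        have h6 := h1 y hy
        have h7 : (β * y - (1 - κ)) / d ≤ 0 :=
          div_nonpos_of_nonpos_of_nonneg (by linarith) hd0.le
        simp only [hG]
        rw [max_eq_left h7, min_eq_right zero_le_one]
        linarith)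
  have hii : ∀ a c : ℝ, 0 ≤ a → a ≤ c → c ≤ 1 →
      IntervalIntegrable (fun y => G (prim x y)) volume a c := by
    intro a c ha hac hc1
    refine ContinuousOn.intervalIntegrable ?_
    rw [uIcc_of_le hac]
    exact (hGc.comp_continuousOn (prof_cont hpX)).mono (Icc_subset_Icc ha hc1)
  have h5 : -h0 + g * y0 ≤ ∫ y in (0 : ℝ)..1, G (prim x y) := by
    rw [← intervalIntegral.integral_add_adjacent_intervals (hii 0 y0 le_rfl hy0 hy01)
      (hii y0 1 hy0 hy01 le_rfl)]
    have h6 : ∫ y in (0 : ℝ)..y0, (-h0 + g) ≤ ∫ y in (0 : ℝ)..y0, G (prim x y) := by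
      refine intervalIntegral.integral_mono_on hy0 intervalIntegrable_const
        (hii 0 y0 le_rfl hy0 hy01) fun y hy => ?_
      have h7 : prim x y0 ≤ prim x y := hpX.anti y ⟨hy.1, hy.2.trans hy01⟩ y0 ⟨hy0, hy01⟩ hy.2
      have h8 : d ≤ β * prim x y - (1 - κ) := by
        have := mul_le_mul_of_nonneg_left h7 hb0.le
        have e : β * prim x y0 = β * ∫ u in y0..1, x u := rfl
        rw [hd]
        linarith
      have h9 : 1 ≤ (β * prim x y - (1 - κ)) / d := by
        rw [le_div_iff₀ hd0]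
        linarith
      simp only [hG]
      rw [max_eq_right (by linarith), min_eq_left h9, mul_one]
    have h7 : ∫ y in y0..1, (-h0) ≤ ∫ y in y0..1, G (prim x y) := by
      refine intervalIntegral.integral_mono_on hy01 intervalIntegrable_const
        (hii y0 1 hy0 hy01 le_rfl) fun y _ => ?_
      have : 0 ≤ g * min 1 (max 0 ((β * prim x y - (1 - κ)) / d)) :=
        mul_nonneg hg (le_min zero_le_one (le_max_left _ _))
      simp only [hG]
      linarith
    rw [intervalIntegral.integral_const, smul_eq_mul] at h6 h7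
    linarith
  linarith

end Vale.Agent.P146.R2.H144.X
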